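import Vale.Agent.P154.Link4
import Vale.Agent.P154.Key4

namespace Vale.Agent.Results.P154.Ferro34

open Vale.Agent.P154 Filter Topology

theorem result (q : ℕ) (hq : q = 3 ∨ q = 4) :
    (∀ (d : ℕ) (lam : ℝ), 2 ≤ d → 0 ≤ lam → lam ≤ 1 → d * lam ^ 2 ≤ 1 →
      (∀ n, HasSum (marg q lam (regOff d) n) 1) ∧
        Tendsto (adv q lam (regOff d)) atTop (𝓝 0)) ∧
    (∀ (d lam : ℝ), 0 < d → 0 ≤ lam → lam ≤ 1 → d * lam ^ 2 ≤ 1 →
      (∀ n, HasSum (marg q lam (poiOff d) n) 1) ∧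
        Tendsto (adv q lam (poiOff d)) atTop (𝓝 0)) := by
  have r0 : ∀ d k : ℕ, 0 ≤ regOff d k := fun d k => by unfold regOff; split_ifs <;> norm_num
  have r1 : ∀ d : ℕ, 2 ≤ d → 0 < regOff d (d - 2 + 2) := fun d hd => by
    have : d - 2 + 2 = d := by omega
    simp [regOff, this]
  have p1 : ∀ (d : ℝ) (k : ℕ), 0 < d → 0 < poiOff d k := fun d k hd => by
    unfold poiOff; positivity
  rcases hq with rfl | rfl
  · exact ⟨fun d lam hd h0 h1 hKS => main h0 h1 (r0 d) (reg_hs d) (reg_hd d) (d - 2) (r1 d hd) hKS,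
      fun d lam hd h0 h1 hKS =>
        main h0 h1 (fun k => (p1 d k hd).le) (poi_hs d) (poi_hd d) 0 (p1 d _ hd) hKS⟩
  · exact ⟨fun d lam hd h0 h1 hKS =>
        Q4.main4 Q4.key h0 h1 (r0 d) (reg_hs d) (reg_hd d) (d - 2) (r1 d hd) hKS,
      fun d lam hd h0 h1 hKS =>
        Q4.main4 Q4.key h0 h1 (fun k => (p1 d k hd).le) (poi_hs d) (poi_hd d) 0 (p1 d _ hd) hKS⟩

end Vale.Agent.Results.P154.Ferro34
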