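import Vale.Agent.P154.GAll
import Vale.Agent.P154.Key4
import Vale.Agent.P154.KeyJ
import Vale.Agent.P154.KeyK
import Vale.Agent.P154.KeyL
import Vale.Agent.P154.KeyM

namespace Vale.Agent.Results.P154.Full

open Vale.Agent.P154 Filter Topology

theorem result (q : ℕ) (lam : ℝ) (h : (q = 3 ∧ -1 / 2 ≤ lam) ∨ (q = 4 ∧ 0 ≤ lam)) (h1 : lam ≤ 1) :
    (∀ d : ℕ, 2 ≤ d →
      (∀ n, HasSum (marg q lam (regOff d) n) 1) ∧
        (Tendsto (adv q lam (regOff d)) atTop (𝓝 0) ↔ d * lam ^ 2 ≤ 1) ∧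
        ((∃ c : ℝ, 0 < c ∧ ∀ n, c ≤ adv q lam (regOff d) n) ↔ 1 < d * lam ^ 2)) ∧
    (∀ d : ℝ, 0 < d →
      (∀ n, HasSum (marg q lam (poiOff d) n) 1) ∧
        (Tendsto (adv q lam (poiOff d)) atTop (𝓝 0) ↔ d * lam ^ 2 ≤ 1) ∧
        ((∃ c : ℝ, 0 < c ∧ ∀ n, c ≤ adv q lam (poiOff d) n) ↔ 1 < d * lam ^ 2)) := by
  have kJ := Q3.keyJ (by norm_num) (by norm_num)
  have kM := Q3.keyM (by norm_num) (by norm_num)
  have kL := Q3.keyL (by norm_num) (by norm_num)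
  exact DE.full_of (Q3.keyK (by norm_num) (by norm_num)) Q4.key (DE.allReg kJ kM kL)
    (DE.allPoi kJ kM kL) q lam h h1

end Vale.Agent.Results.P154.Full
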