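import Vale.Agent.P154.Pen
import Vale.Agent.P154.Key4

namespace Vale.Agent.Results.P154.Iff34

open Vale.Agent.P154 Filter Topology

theorem result (q : ℕ) (hq : q = 3 ∨ q = 4) :
    (∀ (d : ℕ) (lam : ℝ), 2 ≤ d → 0 ≤ lam → lam ≤ 1 →
      (∀ n, HasSum (marg q lam (regOff d) n) 1) ∧
        (Tendsto (adv q lam (regOff d)) atTop (𝓝 0) ↔ d * lam ^ 2 ≤ 1) ∧
        ((∃ c : ℝ, 0 < c ∧ ∀ n, c ≤ adv q lam (regOff d) n) ↔ 1 < d * lam ^ 2)) ∧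
    (∀ (d lam : ℝ), 0 < d → 0 ≤ lam → lam ≤ 1 →
      (∀ n, HasSum (marg q lam (poiOff d) n) 1) ∧
        (Tendsto (adv q lam (poiOff d)) atTop (𝓝 0) ↔ d * lam ^ 2 ≤ 1) ∧
        ((∃ c : ℝ, 0 < c ∧ ∀ n, c ≤ adv q lam (poiOff d) n) ↔ 1 < d * lam ^ 2)) := by
  have r0 : ∀ d k : ℕ, 0 ≤ regOff d k := fun d k => by unfold regOff; split_ifs <;> norm_num
  have r1 : ∀ d : ℕ, 2 ≤ d → 0 < regOff d (d - 2 + 2) := fun d hd => by
    have : d - 2 + 2 = d := by omega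
    simp [regOff, this]
  have p1 : ∀ (d : ℝ) (k : ℕ), 0 < d → 0 < poiOff d k := fun d k hd => by
    unfold poiOff; positivity
  rcases hq with rfl | rfl
  · refine ⟨fun d lam hd h0 h1 => ?_, fun d lam hd h0 h1 => ?_⟩
    · have h2 : -1 / 2 ≤ lam := by linarith
      exact ⟨margN h2 h1 (r0 d) (reg_hs d), iff_of
        (fun hKS => (main h0 h1 (r0 d) (reg_hs d) (reg_hd d) (d - 2) (r1 d hd) hKS).2)
        (ks3c h2 h1 (r0 d) (reg_hs d) (reg_hd d))⟩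
    · have h2 : -1 / 2 ≤ lam := by linarith
      have hp : ∀ k, 0 ≤ poiOff d k := fun k => (p1 d k hd).le
      exact ⟨margN h2 h1 hp (poi_hs d), iff_of
        (fun hKS => (main h0 h1 hp (poi_hs d) (poi_hd d) 0 (p1 d _ hd) hKS).2)
        (ks3c h2 h1 hp (poi_hs d) (poi_hd d))⟩
  · refine ⟨fun d lam hd h0 h1 => ?_, fun d lam hd h0 h1 => ?_⟩
    · exact ⟨Q4.marg4 h0 h1 (r0 d) (reg_hs d), iff_of
        (fun hKS => (Q4.main4 Q4.key h0 h1 (r0 d) (reg_hs d) (reg_hd d) (d - 2) (r1 d hd) hKS).2)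
        (Q4.ks4c h0 h1 (r0 d) (reg_hs d) (reg_hd d))⟩
    · have hp : ∀ k, 0 ≤ poiOff d k := fun k => (p1 d k hd).le
      exact ⟨Q4.marg4 h0 h1 hp (poi_hs d), iff_of
        (fun hKS => (Q4.main4 Q4.key h0 h1 hp (poi_hs d) (poi_hd d) 0 (p1 d _ hd) hKS).2)
        (Q4.ks4c h0 h1 hp (poi_hs d) (poi_hd d))⟩

end Vale.Agent.Results.P154.Iff34
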