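import Vale.Agent.P154.Pen
import Vale.Agent.P154.Key4
import Vale.Agent.P154.KeyK

namespace Vale.Agent.Results.P154.Iff34N

open Vale.Agent.P154 Filter Topology

theorem result (q : ℕ) (lam : ℝ) (h1 : lam ≤ 1) :
    (∀ d : ℕ, 2 ≤ d →
      (q = 3 ∧ -1 / 2 ≤ lam ∧ (-2 / 9 ≤ lam ∨ 21 ≤ d)) ∨ (q = 4 ∧ 0 ≤ lam) →
      (∀ n, HasSum (marg q lam (regOff d) n) 1) ∧
        (Tendsto (adv q lam (regOff d)) atTop (𝓝 0) ↔ d * lam ^ 2 ≤ 1) ∧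
        ((∃ c : ℝ, 0 < c ∧ ∀ n, c ≤ adv q lam (regOff d) n) ↔ 1 < d * lam ^ 2)) ∧
    (∀ d : ℝ, 0 < d →
      (q = 3 ∧ -1 / 2 ≤ lam ∧ (-2 / 9 ≤ lam ∨ 81 / 4 ≤ d)) ∨ (q = 4 ∧ 0 ≤ lam) →
      (∀ n, HasSum (marg q lam (poiOff d) n) 1) ∧
        (Tendsto (adv q lam (poiOff d)) atTop (𝓝 0) ↔ d * lam ^ 2 ≤ 1) ∧
        ((∃ c : ℝ, 0 < c ∧ ∀ n, c ≤ adv q lam (poiOff d) n) ↔ 1 < d * lam ^ 2)) := by
  have r0 : ∀ d k : ℕ, 0 ≤ regOff d k := fun d k => by unfold regOff; split_ifs <;> norm_num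
  have r1 : ∀ d : ℕ, 2 ≤ d → 0 < regOff d (d - 2 + 2) := fun d hd => by
    have : d - 2 + 2 = d := by omega
    simp [regOff, this]
  have p1 : ∀ (d : ℝ) (k : ℕ), 0 < d → 0 < poiOff d k := fun d k hd => by
    unfold poiOff; positivity
  have k3 : ∀ {p : ℕ → ℝ} (_ : ∀ k, 0 ≤ p k) (_ : HasSum p 1) {d : ℝ}
      (_ : HasSum (fun k : ℕ => p k * k) d) (k0 : ℕ) (_ : 0 < p (k0 + 2)),
      -2 / 9 ≤ lam ∨ 81 / 4 ≤ d → d * lam ^ 2 ≤ 1 → Tendsto (adv 3 lam p) atTop (𝓝 0) := by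
    intro p hp hs d hd k0 hk h hKS
    have h2 : -(2 / 9) ≤ lam := by
      rcases h with h | h
      · linarith
      · by_contra hh
        have h3 : (2 / 9 : ℝ) ^ 2 < lam ^ 2 := by nlinarith [not_le.1 hh]
        nlinarith
    rcases le_total 0 lam with h0 | h0
    · exact (main h0 h1 hp hs hd k0 hk hKS).2
    · exact (mainN (by norm_num) (Q3.keyK (by norm_num) (by norm_num)) h2 h0 hp hs hd k0 hk hKS).2
  refine ⟨fun d hd h => ?_, fun d hd h => ?_⟩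
  · rcases h with ⟨rfl, h2, h⟩ | ⟨rfl, h0⟩
    · refine ⟨margN h2 h1 (r0 d) (reg_hs d), iff_of
        (k3 (r0 d) (reg_hs d) (reg_hd d) (d - 2) (r1 d hd) (h.imp id fun h => ?_))
        (ks3c h2 h1 (r0 d) (reg_hs d) (reg_hd d))⟩
      have : (21 : ℝ) ≤ d := by exact_mod_cast h
      linarith
    · exact ⟨Q4.marg4 h0 h1 (r0 d) (reg_hs d), iff_of
        (fun hKS => (Q4.main4 Q4.key h0 h1 (r0 d) (reg_hs d) (reg_hd d) (d - 2) (r1 d hd) hKS).2)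
        (Q4.ks4c h0 h1 (r0 d) (reg_hs d) (reg_hd d))⟩
  · have hp : ∀ k, 0 ≤ poiOff d k := fun k => (p1 d k hd).le
    rcases h with ⟨rfl, h2, h⟩ | ⟨rfl, h0⟩
    · exact ⟨margN h2 h1 hp (poi_hs d), iff_of (k3 hp (poi_hs d) (poi_hd d) 0 (p1 d _ hd) h)
        (ks3c h2 h1 hp (poi_hs d) (poi_hd d))⟩
    · exact ⟨Q4.marg4 h0 h1 hp (poi_hs d), iff_of
        (fun hKS => (Q4.main4 Q4.key h0 h1 hp (poi_hs d) (poi_hd d) 0 (p1 d _ hd) hKS).2)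
        (Q4.ks4c h0 h1 hp (poi_hs d) (poi_hd d))⟩

end Vale.Agent.Results.P154.Iff34N
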